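import Vale.Agent.P032.S5.H767.Raw
import Vale.Agent.P032.S5.H767.Five

/-!
# P032: no E1 corner at the end of a gap of an `M` vertex (one window)

`V` has the pairs `p x' | q x''`, `y ∈ S(V)` is a point with the pairs `p q | e f` (an `E1` corner of
`V`).  In a window of times `t` the slot `2` of `V` is an exact arc of the pair with `x2` up to its
first plain end, slot `4` an exact arc of the pair with `x1` up to its first plain end; slots `0, 1, 5`
of `y` carry no exact arc of `p q`; slot `0` of `y` is inside `{x1, x2}` (it lies over a gap of `V`),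
the slots `2, 4` of `y` start with `{e, f}`.  This is impossible.

* `pure_free`, `frozen`: elementary rules
* `leave`: slot `2` of `y` leaves `{e, f}` only if slot `1` of `y` is `{x2}` from the beginning
* `window_false`: the contradiction (points as continuous curves)
-/

open Set Filter Topology Metric

noncomputable section

namespace Vale.Agent.P032.H50

open Vale.Agent.P032.Six Vale.Agent.P032.S5.H767

variable {U : Fin 6 → Set ℂ} {T : ℂ → Set (Fin 6)}

/-- the colour of a pure point is absent at the points at distance one -/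
theorem pure_free (h : Irr U T) {x y : ℂ} {i : Fin 6} (hx : T x ⊆ {i}) (hxy : dist x y = 1) :
    i ∉ T y := fun hi => h.mx.notMem' (h.mem_of_single hx) hxy (h.sub y hi)

theorem card_pair_le (s t : Fin 6) : ({s, t} : Set (Fin 6)).ncard ≤ 2 := by
  calc ({s, t} : Set (Fin 6)).ncard ≤ ({t} : Set (Fin 6)).ncard + 1 := Set.ncard_insert_le _ _
    _ = 2 := by rw [Set.ncard_singleton]

theorem card_triple_le (s t u : Fin 6) : ({s, t, u} : Set (Fin 6)).ncard ≤ 3 := by
  have h1 := Set.ncard_insert_le s ({t, u} : Set (Fin 6))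
  have h2 := card_pair_le t u
  omega

/-- two points at distance one inside the same pair are pure and different -/
theorem frozen (h : Irr U T) {x y : ℂ} (hxy : dist x y = 1) {s t : Fin 6} (hx : T x ⊆ {s, t})
    (hy : T y ⊆ {s, t}) : T x = {s} ∧ T y = {t} ∨ T x = {t} ∧ T y = {s} := by
  have hyx : dist y x = 1 := by rw [dist_comm]; exact hxy
  have cx : (T x).ncard ≤ 3 := (Set.ncard_le_ncard hx (Set.toFinite _)).trans
    ((card_pair_le s t).trans (by norm_num))
  have cy : (T y).ncard ≤ 3 := (Set.ncard_le_ncard hy (Set.toFinite _)).trans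
    ((card_pair_le s t).trans (by norm_num))
  have hx2 : ¬ (s ∈ T x ∧ t ∈ T x) := by
    rintro ⟨h1, h2⟩
    refine h.not_sub hyx cx fun m hm => ?_
    rcases hy hm with rfl | h3
    · exact h1
    · rw [mem_singleton_iff.1 h3]; exact h2
  have hy2 : ¬ (s ∈ T y ∧ t ∈ T y) := by
    rintro ⟨h1, h2⟩
    refine h.not_sub hxy cy fun m hm => ?_
    rcases hx hm with rfl | h3
    · exact h1
    · rw [mem_singleton_iff.1 h3]; exact h2
  have single : ∀ {w : ℂ} {i j : Fin 6}, T w ⊆ {i, j} → j ∉ T w → T w = {i} := by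
    intro w i j hw hj
    refine Subset.antisymm (fun m hm => ?_) ?_
    · rcases hw hm with h3 | h3
      · exact h3
      · rw [mem_singleton_iff.1 h3] at hm; exact absurd hm hj
    · rintro m rfl
      obtain ⟨l, hl⟩ := h.ne w
      rcases hw hl with h3 | h3
      · exact h3 ▸ hl
      · rw [mem_singleton_iff.1 h3] at hl; exact absurd hl hj
  by_cases hs : s ∈ T x
  · have h1 : T x = {s} := single hx fun h2 => hx2 ⟨hs, h2⟩
    have h2 : s ∉ T y := pure_free h h1.subset hxy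
    left
    exact ⟨h1, single (by rw [pair_comm]; exact hy) h2⟩
  · have h1 : T x = {t} := single (by rw [pair_comm]; exact hx) hs
    have h2 : t ∉ T y := pure_free h h1.subset hxy
    right
    exact ⟨h1, single hy h2⟩

/-- **Leaving `{e, f}`.**  `w0, w1, w2` neighbouring slots of `y`, `v` the slot of `V` over `w2`; `v` is
an exact arc of `{c, x2}` up to the time `s` of its plain end `{c, x2, e}`; `w2` starts with `{e, f}`,
`w0` is inside `{x1, x2}`.  Then `w1` starts with `{x2}`. -/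
theorem leave (h : Irr U T) {V y : ℂ} {w0 w1 w2 v : ℝ → ℂ} {s : ℝ} (hs : 0 < s)
    {x1 x2 c e f : Fin 6} (hx12 : x1 ≠ x2) (hx1e : x1 ≠ e) (hx1f : x1 ≠ f) (hx2e : x2 ≠ e)
    (hx2f : x2 ≠ f)
    (cw1 : Continuous w1) (cw2 : Continuous w2)
    (d01 : ∀ t, dist (w0 t) (w1 t) = 1) (d12 : ∀ t, dist (w1 t) (w2 t) = 1)
    (d2y : ∀ t, dist (w2 t) y = 1) (dv2 : ∀ t, dist (v t) (w2 t) = 1)
    (n1 : ∀ t ∈ Ioc 0 s, y ≠ v t) (n2 : ∀ t ∈ Ioc 0 s, y + v t ≠ 2 * w2 t)
    (n3 : ∀ t ∈ Ioc 0 s, w2 t ≠ V) (n4 : ∀ t ∈ Ioc 0 s, w2 t + V ≠ 2 * v t)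
    (he : e ∈ T y) (hf : f ∈ T y)
    (hw0 : ∀ t ∈ Ioc 0 s, T (w0 t) ⊆ {x1, x2})
    (hw1 : ∀ t ∈ Ioc 0 s, T (w1 t) ⊆ {x1, x2, e, f})
    (hw1p : ∀ t ∈ Ioc 0 s, (e ∈ T (w1 t) ↔ f ∈ T (w1 t)))
    (hw1o : ∀ t ∈ Ioc 0 s, (T (w1 t)).ncard ≤ 3)
    (hw2 : ∀ t ∈ Ioc 0 s, e ∈ T (w2 t) → f ∈ T (w2 t) →
      T (w2 t) ⊆ {e, f, x1} ∨ T (w2 t) ⊆ {e, f, x2})
    (hw20 : ∀ᶠ t in 𝓝[>] (0 : ℝ), T (w2 t) ⊆ {e, f})
    (hv : ∀ t ∈ Ioo 0 s, v t ∈ Ex T V {c, x2}) (hvs : T (v s) = {c, x2, e}) :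
    ∀ᶠ t in 𝓝[>] (0 : ℝ), T (w1 t) = {x2} := by
  have dy2 : ∀ t, dist (w2 t) (v t) = 1 := fun t => by rw [dist_comm]; exact dv2 t
  -- the closed set of times with another colour
  let C : Set ℝ := {t | ¬ T (w2 t) ⊆ {e, f}}
  have hC : IsClosed C := by
    have h1 : C = ⋃ i ∈ ({e, f}ᶜ : Set (Fin 6)), {t | i ∈ T (w2 t)} := by
      ext t
      simp only [C, mem_ofPred_eq, mem_iUnion, exists_prop, not_subset]
      constructor
      · rintro ⟨i, h1, h2⟩; exact ⟨i, h2, h1⟩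
      · rintro ⟨i, h1, h2⟩; exact ⟨i, h2, h1⟩
    rw [h1]
    exact (Set.toFinite _).isClosed_biUnion fun i _ => (h.closed i).preimage cw2
  -- the end of `v`
  have hsC : s ∈ C := by
    intro hsub
    have hes : e ∈ T (v s) := by rw [hvs]; simp
    exact two_contact h hsub (dy2 s) (d2y s) (n1 s ⟨hs, le_rfl⟩) (n2 s ⟨hs, le_rfl⟩) hes hf
  obtain ⟨ε, hε, hε2⟩ : ∃ ε > 0, ∀ t ∈ Ioo 0 ε, T (w2 t) ⊆ {e, f} := by
    obtain ⟨ε, hε, h1⟩ := mem_nhdsGT_iff_exists_Ioo_subset.1 hw20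
    exact ⟨ε, hε, fun t ht => h1 ht⟩
  have hεs : ε ≤ s := by
    by_contra hcon
    exact hsC (hε2 s ⟨hs, not_le.1 hcon⟩)
  obtain ⟨τ, ⟨hτC, hτ1, hτ2⟩, hτmin⟩ : ∃ τ, IsLeast (C ∩ Icc (ε / 2) s) τ :=
    ((isCompact_Icc.inter_left hC)).exists_isLeast ⟨s, hsC, by linarith, le_rfl⟩
  have hτ0 : 0 < τ := by linarith
  have hτm : τ ∈ Ioc 0 s := ⟨hτ0, hτ2⟩
  have hlow : ∀ t ∈ Ioo 0 τ, T (w2 t) ⊆ {e, f} := by
    intro t ht
    by_contra hcon
    by_cases h1 : ε / 2 ≤ t
    · exact absurd (hτmin ⟨hcon, h1, ht.2.le.trans hτ2⟩) (not_le.2 ht.2)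
    · exact hcon (hε2 t ⟨ht.1, by linarith⟩)
  have heq : ∀ t ∈ Ioo 0 τ, e ∈ T (w2 t) ∧ f ∈ T (w2 t) := by
    intro t ht
    constructor
    · by_contra hcon
      refine pure_free h (i := f) (fun m hm => ?_) (d2y t) hf
      rcases hlow t ht hm with h1 | h1
      · exact absurd (h1 ▸ hm) hcon
      · exact h1
    · by_contra hcon
      refine pure_free h (i := e) (fun m hm => ?_) (d2y t) he
      rcases hlow t ht hm with h1 | h1
      · exact h1
      · rw [mem_singleton_iff.1 h1] at hm; exact absurd hm hcon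
  have hcl : τ ∈ closure (Ioo 0 τ) := by
    rw [closure_Ioo hτ0.ne]; exact ⟨hτ0.le, le_rfl⟩
  have hτe : e ∈ T (w2 τ) := by
    have h1 : Ioo 0 τ ⊆ {t | e ∈ T (w2 t)} := fun t ht => (heq t ht).1
    exact closure_minimal h1 ((h.closed e).preimage cw2) hcl
  have hτf : f ∈ T (w2 τ) := by
    have h1 : Ioo 0 τ ⊆ {t | f ∈ T (w2 t)} := fun t ht => (heq t ht).2
    exact closure_minimal h1 ((h.closed f).preimage cw2) hcl
  obtain ⟨i, hi, hief⟩ := not_subset.1 hτC
  -- the new colour is `x1`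
  have hx1τ : T (w2 τ) ⊆ {e, f, x1} ∧ x1 ∈ T (w2 τ) := by
    rcases hw2 τ hτm hτe hτf with h1 | h1
    · refine ⟨h1, ?_⟩
      rcases h1 hi with h2 | h2 | h2
      · exact absurd (Or.inl h2) hief
      · exact absurd (Or.inr h2) hief
      · exact mem_singleton_iff.1 h2 ▸ hi
    · exfalso
      have hx2 : x2 ∈ T (w2 τ) := by
        rcases h1 hi with h2 | h2 | h2
        · exact absurd (Or.inl h2) hief
        · exact absurd (Or.inr h2) hief
        · exact mem_singleton_iff.1 h2 ▸ hi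
      rcases hτ2.lt_or_eq with h3 | h3
      · have h4 := hv τ ⟨hτ0, h3⟩
        refine line_free h h4.1 (h4.2.mono fun q hq => ?_) (dv2 τ) (n3 τ hτm) (n4 τ hτm)
          (h.sub _ hx2)
        rw [hq]; simp
      · have h4 : T (w2 τ) ⊆ insert f (T (v τ)) := by
          rw [h3, hvs, ← h3]
          intro m hm
          rcases h1 hm with h5 | h5 | h5
          · subst h5; simp
          · subst h5; simp
          · rw [mem_singleton_iff.1 h5]; simp
        have h5 : (T (v τ)).ncard ≤ 3 := by rw [h3, hvs]; exact card_triple_le _ _ _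
        rcases h.lemmaX (dy2 τ) h5 h4 (d2y τ) (h.sub _ hf) with h6 | h6
        · exact n1 τ hτm h6
        · exact n2 τ hτm h6
  -- below `τ` the slot `w1` is pure
  have hw1' : ∀ t ∈ Ioo 0 τ, T (w1 t) = {x1} ∨ T (w1 t) = {x2} := by
    intro t ht
    have htm : t ∈ Ioc 0 s := ⟨ht.1, ht.2.le.trans hτ2⟩
    have hne : e ∉ T (w1 t) := by
      intro h1
      have h2 := (hw1p t htm).1 h1
      refine h.not_sub (x := w1 t) (y := w2 t) (by rw [dist_comm]; exact d12 t) (hw1o t htm)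
        fun m hm => ?_
      rcases hlow t ht hm with h3 | h3
      · exact h3 ▸ h1
      · rw [mem_singleton_iff.1 h3]; exact h2
    have hnf : f ∉ T (w1 t) := fun h1 => hne ((hw1p t htm).2 h1)
    have hsub : T (w1 t) ⊆ {x1, x2} := by
      intro m hm
      rcases hw1 t htm hm with h1 | h1 | h1 | h1
      · exact Or.inl h1
      · exact Or.inr h1
      · exact absurd (h1 ▸ hm) hne
      · rw [mem_singleton_iff.1 h1] at hm; exact absurd hm hnf
    rcases frozen h (d01 t) (hw0 t htm) hsub with h1 | h1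
    · exact Or.inr h1.2
    · exact Or.inl h1.2
  have hall : ∀ t ∈ Ioo 0 τ, T (w1 t) = {x2} := by
    by_contra hcon
    push Not at hcon
    obtain ⟨t0, ht0, hne0⟩ := hcon
    have ht0' : T (w1 t0) = {x1} := (hw1' t0 ht0).resolve_right hne0
    -- all of the interval is `{x1}`
    have hc1 : IsClosed {t | x1 ∈ T (w1 t)} := (h.closed x1).preimage cw1
    have hc2 : IsClosed {t | x2 ∈ T (w1 t)} := (h.closed x2).preimage cw1
    have hcon1 : ∀ t ∈ Ioo 0 τ, x1 ∈ T (w1 t) := by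
      intro t ht
      by_contra hx
      have h2 : T (w1 t) = {x2} := by
        rcases hw1' t ht with h3 | h3
        · exact absurd (by rw [h3]; rfl) hx
        · exact h3
      have hpre : IsPreconnected (Ioo 0 τ) := isPreconnected_Ioo
      rw [isPreconnected_closed_iff] at hpre
      obtain ⟨r, hr, hr1, hr2⟩ := hpre _ _ hc1 hc2 (fun r hr => by
        rcases hw1' r hr with h3 | h3
        · left; show x1 ∈ T (w1 r); rw [h3]; rfl
        · right; show x2 ∈ T (w1 r); rw [h3]; rfl)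
        ⟨t0, ht0, by show x1 ∈ T (w1 t0); rw [ht0']; rfl⟩
        ⟨t, ht, by show x2 ∈ T (w1 t); rw [h2]; rfl⟩
      have hr1 : x1 ∈ T (w1 r) := hr1
      have hr2 : x2 ∈ T (w1 r) := hr2
      rcases hw1' r hr with h3 | h3
      · rw [h3] at hr2; exact hx12 (mem_singleton_iff.1 hr2).symm
      · rw [h3] at hr1; exact hx12 (mem_singleton_iff.1 hr1)
    have h1τ : x1 ∈ T (w1 τ) := closure_minimal hcon1 hc1 hcl
    have h2τ : x2 ∉ T (w1 τ) := by
      intro h2
      refine h.not_sub (x := w1 τ) (y := w0 τ) (d01 τ) (hw1o τ hτm) fun m hm => ?_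
      rcases hw0 τ hτm hm with h3 | h3
      · exact h3 ▸ h1τ
      · rw [mem_singleton_iff.1 h3]; exact h2
    have heτ : e ∉ T (w1 τ) := by
      intro h3
      have h4 := (hw1p τ hτm).1 h3
      refine h.not_sub (x := w1 τ) (y := w2 τ) (by rw [dist_comm]; exact d12 τ) (hw1o τ hτm)
        fun m hm => ?_
      rcases hx1τ.1 hm with h5 | h5 | h5
      · exact h5 ▸ h3
      · exact h5 ▸ h4
      · rw [mem_singleton_iff.1 h5]; exact h1τ
    have hfτ : f ∉ T (w1 τ) := fun h3 => heτ ((hw1p τ hτm).2 h3)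
    refine pure_free h (i := x1) (fun m hm => ?_) (d12 τ) hx1τ.2
    rcases hw1 τ hτm hm with h5 | h5 | h5 | h5
    · exact h5
    · rw [h5] at hm; exact absurd hm h2τ
    · rw [h5] at hm; exact absurd hm heτ
    · rw [mem_singleton_iff.1 h5] at hm; exact absurd hm hfτ
  exact mem_nhdsGT_iff_exists_Ioo_subset.2 ⟨τ, hτ0, fun t ht => hall t ht⟩

/-! ### the window in the angle coordinate -/

theorem cis_off {α β : ℝ} (hs : Real.sin (β - α) ≠ 0) : cis α ≠ cis β ∧ cis α + cis β ≠ 0 := by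
  have him : ∀ θ : ℝ, (cis θ).im = Real.sin θ := fun θ => by
    unfold cis; exact Complex.exp_ofReal_mul_I_im θ
  have h0 : cis α * cis (-α) = 1 := by
    rw [← cis_add]; unfold cis; simp
  have h1 : cis (β - α) = cis β * cis (-α) := by rw [← cis_add]; congr 1
  constructor
  · intro h
    rw [← h, h0] at h1
    have h2 := him (β - α)
    rw [h1] at h2
    exact hs (by rw [← h2]; simp)
  · intro h
    have h3 : cis β = -cis α := by linear_combination h
    rw [h3, neg_mul, h0] at h1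
    have h2 := him (β - α)
    rw [h1] at h2
    exact hs (by rw [← h2]; simp)

theorem dist_par (V y : ℂ) (u : ℝ) : dist (pt V u) (pt y u) = dist V y := by
  unfold pt; rw [dist_add_right]

theorem dist_pt_one' (z : ℂ) (u : ℝ) : dist (pt z u) (pt z (u - 1)) = 1 := by
  have h := dist_pt_one z (u - 1)
  rw [sub_add_cancel] at h
  rw [dist_comm]; exact h

/-- neighbouring slots, both orientations -/
theorem dist_slot (z : ℂ) {p σ : ℝ} (hσ : σ = 1 ∨ σ = -1) (k : ℝ) :
    dist (pt z (p + σ * k)) (pt z (p + σ * (k + 1))) = 1 := by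
  rcases hσ with rfl | rfl
  · have := dist_pt_one z (p + 1 * k)
    convert this using 3; ring
  · have := dist_pt_one' z (p + -1 * k)
    convert this using 3; ring

theorem pt_six' (z : ℂ) {p σ : ℝ} (hσ : σ = 1 ∨ σ = -1) (k : ℝ) :
    pt z (p + σ * (k + 6)) = pt z (p + σ * k) := by
  rcases hσ with rfl | rfl
  · have := pt_six z (p + 1 * k)
    rw [← this]; congr 1; ring
  · have := pt_six z (p + -1 * (k + 6))
    rw [← this]; congr 1; ring

theorem continuous_slot (z : ℂ) (p σ k : ℝ) : Continuous fun t : ℝ => pt z (p + σ * (k + t)) :=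
  (continuous_pt z).comp (by fun_prop)

/-- the four position facts of a slot -/
theorem slot_off (V : ℂ) {p σ k t : ℝ} (hσ : σ = 1 ∨ σ = -1)
    (hk : Real.sin ((k + t) * (Real.pi / 3)) ≠ 0) :
    pt V p ≠ pt V (p + σ * (k + t)) ∧
    pt V p + pt V (p + σ * (k + t)) ≠ 2 * pt (pt V p) (p + σ * (k + t)) ∧
    pt (pt V p) (p + σ * (k + t)) ≠ V ∧
    pt (pt V p) (p + σ * (k + t)) + V ≠ 2 * pt V (p + σ * (k + t)) := by
  have hs : Real.sin ((p + σ * (k + t)) * (Real.pi / 3) - p * (Real.pi / 3)) ≠ 0 := by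
    have h1 : (p + σ * (k + t)) * (Real.pi / 3) - p * (Real.pi / 3) =
        σ * ((k + t) * (Real.pi / 3)) := by ring
    rw [h1]
    rcases hσ with rfl | rfl
    · rwa [one_mul]
    · rw [neg_one_mul, Real.sin_neg]; exact neg_ne_zero.2 hk
  obtain ⟨h1, h2⟩ := cis_off hs
  unfold pt
  refine ⟨fun h => h1 ?_, fun h => h2 ?_, fun h => h2 ?_, fun h => h1 ?_⟩
  · linear_combination h
  · linear_combination -h
  · linear_combination h
  · linear_combination h

theorem sin_two {t : ℝ} (h0 : 0 < t) (h1 : t < 1) : Real.sin ((2 + t) * (Real.pi / 3)) ≠ 0 := by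
  have hp := Real.pi_pos
  refine (Real.sin_pos_of_pos_of_lt_pi ?_ ?_).ne'
  · positivity
  · nlinarith

theorem sin_four {t : ℝ} (h0 : 0 < t) (h1 : t < 1) : Real.sin ((4 + t) * (Real.pi / 3)) ≠ 0 := by
  have hp := Real.pi_pos
  have h2 : (4 + t) * (Real.pi / 3) = (1 + t) * (Real.pi / 3) + Real.pi := by ring
  rw [h2, Real.sin_add_pi]
  refine neg_ne_zero.2 (Real.sin_pos_of_pos_of_lt_pi ?_ ?_).ne'
  · positivity
  · nlinarith

/-- the letters of a slot of `y` which carries no exact arc of the connecting pair -/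
def Sl (T : ℂ → Set (Fin 6)) (x1 x2 e f : Fin 6) (w : ℂ) : Prop :=
  T w ⊆ {x1, x2, e, f} ∧ (e ∈ T w ↔ f ∈ T w) ∧ (T w).ncard ≤ 3

/-- **No `E1` corner at the end of a gap.**  `V` has the pairs `pa x1 | pc x2`, `y = pt V p` the pairs
`pa pc | e f`.  The slot `k` at time `t` is the direction `p + σ (k + t)`, `σ = ± 1`.  Slot `2` of `V` is
an exact arc of `pc x2` up to its plain end `{pc, x2, e}` at the time `s2 < 1`, slot `4` an exact arc of
`pa x1` up to its plain end `{pa, x1, e}` at the time `s4 < 1`, slot `0` of `V` is inside `{e, f}` (gap).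
The slots `0, 1, 5` of `y` have at most three colours and carry none of `pa, pc`, the slots `2, 4` of
`y` start with `{e, f}` and leave `{e, f}` through a point with three colours, not of `pa pc`. -/
theorem e1_false (h : Irr U T) {V : ℂ} {p σ : ℝ} (hσ : σ = 1 ∨ σ = -1)
    {pa x1 pc x2 e f : Fin 6} (hx12 : x1 ≠ x2) (hx1e : x1 ≠ e) (hx1f : x1 ≠ f) (hx2e : x2 ≠ e)
    (hx2f : x2 ≠ f) (he : e ∈ T (pt V p)) (hf : f ∈ T (pt V p))
    {s2 s4 : ℝ} (h20 : 0 < s2) (h21 : s2 < 1) (h40 : 0 < s4) (h41 : s4 < 1)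
    (hv0 : ∀ t, 0 < t → t ≤ s2 ∨ t ≤ s4 → T (pt V (p + σ * (0 + t))) ⊆ {e, f})
    (hv2 : ∀ t ∈ Ioo 0 s2, pt V (p + σ * (2 + t)) ∈ Ex T V {pc, x2})
    (hv2s : T (pt V (p + σ * (2 + s2))) = {pc, x2, e})
    (hv4 : ∀ t ∈ Ioo 0 s4, pt V (p + σ * (4 + t)) ∈ Ex T V {pa, x1})
    (hv4s : T (pt V (p + σ * (4 + s4))) = {pa, x1, e})
    (hy0 : ∀ t, 0 < t → t ≤ s2 ∨ t ≤ s4 → Sl T x1 x2 e f (pt (pt V p) (p + σ * (0 + t))))
    (hy1 : ∀ t ∈ Ioc 0 s2, Sl T x1 x2 e f (pt (pt V p) (p + σ * (1 + t))))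
    (hy5 : ∀ t ∈ Ioc 0 s4, Sl T x1 x2 e f (pt (pt V p) (p + σ * (5 + t))))
    (hy2 : ∀ t ∈ Ioc 0 s2, e ∈ T (pt (pt V p) (p + σ * (2 + t))) →
      f ∈ T (pt (pt V p) (p + σ * (2 + t))) →
      T (pt (pt V p) (p + σ * (2 + t))) ⊆ {e, f, x1} ∨
      T (pt (pt V p) (p + σ * (2 + t))) ⊆ {e, f, x2})
    (hy4 : ∀ t ∈ Ioc 0 s4, e ∈ T (pt (pt V p) (p + σ * (4 + t))) →
      f ∈ T (pt (pt V p) (p + σ * (4 + t))) →
      T (pt (pt V p) (p + σ * (4 + t))) ⊆ {e, f, x1} ∨
      T (pt (pt V p) (p + σ * (4 + t))) ⊆ {e, f, x2})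
    (hy20 : ∀ᶠ t in 𝓝[>] (0 : ℝ), T (pt (pt V p) (p + σ * (2 + t))) ⊆ {e, f})
    (hy40 : ∀ᶠ t in 𝓝[>] (0 : ℝ), T (pt (pt V p) (p + σ * (4 + t))) ⊆ {e, f}) : False := by
  set y := pt V p with hy
  have dVy : dist V y = 1 := by rw [dist_comm]; exact dist_pt V p
  have hw0 : ∀ t, 0 < t → t ≤ s2 ∨ t ≤ s4 → T (pt y (p + σ * (0 + t))) ⊆ {x1, x2} := by
    intro t ht ht'
    obtain ⟨h1, h2, h3⟩ := hy0 t ht ht'
    have hne : e ∉ T (pt y (p + σ * (0 + t))) := by
      intro h4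
      refine h.not_sub (x := pt y (p + σ * (0 + t))) (y := pt V (p + σ * (0 + t)))
        (by rw [dist_par]; exact dVy) h3 fun m hm => ?_
      rcases hv0 t ht ht' hm with h5 | h5
      · exact h5 ▸ h4
      · rw [mem_singleton_iff.1 h5]; exact h2.1 h4
    have hnf : f ∉ T (pt y (p + σ * (0 + t))) := fun h4 => hne (h2.2 h4)
    intro m hm
    rcases h1 hm with h5 | h5 | h5 | h5
    · exact Or.inl h5
    · exact Or.inr h5
    · exact absurd (h5 ▸ hm) hne
    · rw [mem_singleton_iff.1 h5] at hm; exact absurd hm hnf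
  have d1 : ∀ (z : ℂ) (k t : ℝ), dist (pt z (p + σ * (k + t))) (pt z (p + σ * (k + 1 + t))) = 1 := by
    intro z k t
    have h1 := dist_slot z (p := p) hσ (k + t)
    convert h1 using 4; ring
  have e2 : ∀ᶠ t in 𝓝[>] (0 : ℝ), T (pt y (p + σ * (1 + t))) = {x2} := by
    refine leave h (V := V) (y := y) (w0 := fun t => pt y (p + σ * (0 + t)))
      (w1 := fun t => pt y (p + σ * (1 + t))) (w2 := fun t => pt y (p + σ * (2 + t)))
      (v := fun t => pt V (p + σ * (2 + t))) h20 hx12 hx1e hx1f hx2e hx2f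
      (continuous_slot _ _ _ _) (continuous_slot _ _ _ _) (fun t => ?_) (fun t => ?_)
      (fun t => dist_pt _ _) (fun t => by rw [dist_par]; exact dVy)
      (fun t ht => (slot_off V hσ (sin_two ht.1 (ht.2.trans_lt h21))).1)
      (fun t ht => (slot_off V hσ (sin_two ht.1 (ht.2.trans_lt h21))).2.1)
      (fun t ht => (slot_off V hσ (sin_two ht.1 (ht.2.trans_lt h21))).2.2.1)
      (fun t ht => (slot_off V hσ (sin_two ht.1 (ht.2.trans_lt h21))).2.2.2)
      he hf (fun t ht => hw0 t ht.1 (Or.inl ht.2)) (fun t ht => (hy1 t ht).1)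
      (fun t ht => (hy1 t ht).2.1) (fun t ht => (hy1 t ht).2.2) hy2 hy20 hv2 hv2s
    · have h1 := d1 y 0 t
      convert h1 using 5; norm_num
    · have h1 := d1 y 1 t
      convert h1 using 5; norm_num
  have e4 : ∀ᶠ t in 𝓝[>] (0 : ℝ), T (pt y (p + σ * (5 + t))) = {x1} := by
    refine leave h (V := V) (y := y) (w0 := fun t => pt y (p + σ * (0 + t)))
      (w1 := fun t => pt y (p + σ * (5 + t))) (w2 := fun t => pt y (p + σ * (4 + t)))
      (v := fun t => pt V (p + σ * (4 + t))) h40 hx12.symm hx2e hx2f hx1e hx1f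
      (continuous_slot _ _ _ _) (continuous_slot _ _ _ _) (fun t => ?_) (fun t => ?_)
      (fun t => dist_pt _ _) (fun t => by rw [dist_par]; exact dVy)
      (fun t ht => (slot_off V hσ (sin_four ht.1 (ht.2.trans_lt h41))).1)
      (fun t ht => (slot_off V hσ (sin_four ht.1 (ht.2.trans_lt h41))).2.1)
      (fun t ht => (slot_off V hσ (sin_four ht.1 (ht.2.trans_lt h41))).2.2.1)
      (fun t ht => (slot_off V hσ (sin_four ht.1 (ht.2.trans_lt h41))).2.2.2)
      he hf (fun t ht => ?_) (fun t ht => ?_)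
      (fun t ht => (hy5 t ht).2.1) (fun t ht => (hy5 t ht).2.2) (fun t ht h1 h2 => ?_) hy40 hv4 hv4s
    · have h1 := d1 y 5 t
      have h2 := pt_six' y (p := p) hσ (0 + t)
      rw [dist_comm]
      rw [← h2]
      convert h1 using 5; ring
    · have h1 := d1 y 4 t
      rw [dist_comm]
      convert h1 using 5; norm_num
    · rw [pair_comm]; exact hw0 t ht.1 (Or.inr ht.2)
    · rw [insert_comm]; exact (hy5 t ht).1
    · exact (hy4 t ht h1 h2).symm
  have hsm : ∀ᶠ t in 𝓝[>] (0 : ℝ), t ∈ Ioo 0 s2 := Ioo_mem_nhdsGT h20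
  obtain ⟨t, h1, h2, h3⟩ := (e2.and (e4.and hsm)).exists
  have k1 : x2 ∉ T (pt y (p + σ * (0 + t))) := by
    refine pure_free h h1.subset ?_
    have h4 := d1 y 0 t
    rw [dist_comm]
    convert h4 using 5; norm_num
  have k2 : x1 ∉ T (pt y (p + σ * (0 + t))) := by
    refine pure_free h h2.subset ?_
    have h4 := d1 y 5 t
    have h5 := pt_six' y (p := p) hσ (0 + t)
    rw [← h5]
    convert h4 using 5; ring
  obtain ⟨m, hm⟩ := h.ne (pt y (p + σ * (0 + t)))
  rcases hw0 t h3.1 (Or.inl h3.2.le) hm with h4 | h4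
  · exact k2 (h4 ▸ hm)
  · rw [mem_singleton_iff.1 h4] at hm; exact k1 hm

end Vale.Agent.P032.H50
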